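import Vale.Agent.P088.R2.H850.Fin3c
import Vale.Agent.P088.H5.Fin3_820
import Vale.Agent.P088.TM.Fin2

/-!
# P088, stage 3: the final statement from the local theorem
-/

set_option linter.all false

open Manifold MeasureTheory Set
open scoped ContDiff Matrix

noncomputable section

namespace Vale.Agent.P088.R2.H794.F3

open Vale.Agent.P088 Vale.Agent.P088.B Vale.Agent.P088.B2 Vale.Agent.P088.B8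

universe u

variable {n N : ℕ} [NeZero n]

/-- The metric of a pair with the trivial connection on functions. -/
def sc0 {M : Type u} [TopologicalSpace M] [ChartedSpace (EuclideanHalfSpace n) M]
    (P : Pair (at_ n M) N) : Pair (at_ n M) 1 where
  g := P.g
  A := 0
  pos := fun x => ⟨(P.pos x).1, fun i => by simp⟩
  smo := fun p i j => ⟨(P.smo p i j).1, fun a b => by
    have h : (fun x => ach (at_ n M) (0 : M → Fin n → Matrix (Fin 1) (Fin 1) ℂ) p i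
        ((at_ n M).ch p x) a b) = fun _ => 0 := by
      funext x
      simp [ach]
    rw [h]
    exact contMDiffOn_const⟩
  vol := P.vol
  isVol := P.isVol

/-- **Two manifolds**: metrics from parallel sections; connections which are gauge equivalent to
the trivial one. -/
theorem two (hC : HY.T3.RowCORE3) (hn : 3 ≤ n) (hN : 1 ≤ N)
    {M₁ M₂ : Type u}
    [TopologicalSpace M₁] [ChartedSpace (EuclideanHalfSpace n) M₁] [IsManifold (𝓡∂ n) ∞ M₁]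
    [T2Space M₁] [CompactSpace M₁] [ConnectedSpace M₁]
    [TopologicalSpace M₂] [ChartedSpace (EuclideanHalfSpace n) M₂] [IsManifold (𝓡∂ n) ∞ M₂]
    [T2Space M₂] [CompactSpace M₂] [ConnectedSpace M₂]
    (Z₁ : At n M₁) (hZ₁ : Z₁ = at_ n M₁) (Z₂ : At n M₂) (hZ₂ : Z₂ = at_ n M₂)
    (Γ₁ O₁ : Set M₁) (hO₁ : IsOpen O₁) (hΓ₁ : Γ₁ = O₁ ∩ bd Z₁) (hne : Γ₁.Nonempty)
    (Γ₂ O₂ : Set M₂) (hO₂ : IsOpen O₂) (hΓ₂ : Γ₂ = O₂ ∩ bd Z₂) (ψ : M₂ → M₁)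
    (hψ : Iden N Z₁ Z₂ Γ₁ Γ₂ ψ) (P : Pair Z₁ N) (Q : Pair Z₂ N) (hd : SameData₂ Γ₁ Γ₂ ψ P Q) :
    (∀ (P₀ : Pair Z₁ 1) (Q₀ : Pair Z₂ 1), P₀.g = P.g → P₀.A = 0 → Q₀.g = Q.g → Q₀.A = 0 →
      ∀ e, Par P e → e ≠ 0 → (∃ e', Par Q e' ∧ ∀ x ∈ Γ₂, e' x = e (ψ x)) ∨
        (Γ₁ = bd Z₁ ∧ Γ₂ = bd Z₂) → UniqueRel₂ Γ₁ Γ₂ ψ P₀ Q₀) ∧
    ((∃ U, GaugeBy U univ Γ₁ 0 P.A Z₁) →
      (∃ U, GaugeBy U univ Γ₂ 0 Q.A Z₂) ∨ (Γ₁ = bd Z₁ ∧ Γ₂ = bd Z₂) →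
      UniqueRel₂ Γ₁ Γ₂ ψ P Q) := by
  have hne₂ : Γ₂.Nonempty := by
    obtain ⟨p, hp⟩ := hne
    obtain ⟨q, hq, -⟩ := hψ.1.surjOn hp
    exact ⟨q, hq⟩
  have h1 := B6.iden_one (Nat.lt_of_lt_of_le Nat.zero_lt_one hN) hψ
  have key : ∀ (P₀ : Pair Z₁ 1) (Q₀ : Pair Z₂ 1), P₀.A = 0 → Q₀.A = 0 →
      SameData₂ Γ₁ Γ₂ ψ P₀ Q₀ → UniqueRel₂ Γ₁ Γ₂ ψ P₀ Q₀ := fun P₀ Q₀ hP hQ hS =>
    R2.H850.C3.cal_two hC hn Z₁ hZ₁ Z₂ hZ₂ Γ₁ O₁ hO₁ hΓ₁ Γ₂ O₂ hO₂ hΓ₂ hne₂ ψ h1 P₀ Q₀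
      (fun x i => by rw [hP]; rfl) (fun x i => by rw [hQ]; rfl) hS
  obtain ⟨-, hr⟩ := B8.two_man hN Z₁ hZ₁ Z₂ hZ₂ Γ₁ O₁ hO₁ hΓ₁ hne Γ₂ O₂ hO₂ hΓ₂ ψ hψ P Q hd
  refine ⟨fun P₀ Q₀ a1 a2 a3 a4 e he h0 h => key P₀ Q₀ a2 a4
    ((hr P₀ Q₀ a1 a2 a3 a4).1 e he h0 h), fun hU hU' => ?_⟩
  subst hZ₁ hZ₂
  obtain ⟨h2, h3⟩ := (hr (sc0 P) (sc0 Q) rfl rfl rfl rfl).2 hU hU'
  obtain ⟨Φ, Ψ, U, h4, h5, -⟩ := key _ _ rfl rfl h2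
  obtain ⟨c1, c2, c3, c4, c5, c6, c7, c8⟩ := h4
  exact uniqueRel_of (by omega) hN _ rfl _ rfl Γ₁ O₁ hO₁ hΓ₁ hne Γ₂ O₂ hO₂ hΓ₂ ψ hψ P Q hd
    (h3.2 ⟨Φ, Ψ, U, c1, c2, c3, c4, c5, c6, c7, c8, h5⟩)

end Vale.Agent.P088.R2.H794.F3
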